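import Mathlib.Algebra.Algebra.Operations
import Mathlib.Analysis.Complex.Basic

/-!
Generic core of the descent on the exponent: powers of a sum of two submodules.
-/

set_option autoImplicit false

namespace Vale.Agent.P181.R2.H940

/-- A submodule which contains all `Z ^ k * U ^ (b - k)` contains `(U ⊔ Z) ^ b`. -/
lemma sup_pow_le {R A : Type*} [CommSemiring R] [CommSemiring A] [Algebra R A]
    (U Z : Submodule R A) (b : ℕ) : ∀ W : Submodule R A,
    (∀ k, k ≤ b → Z ^ k * U ^ (b - k) ≤ W) → (U ⊔ Z) ^ b ≤ W := by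
  intro W h
  have h1 : (U ⊔ Z) ^ b = (U + Z) ^ b := rfl
  rw [h1, add_comm U Z, (Commute.all Z U).add_pow]
  have h2 : ∀ (s : Finset ℕ) (f : ℕ → Submodule R A), (∀ k ∈ s, f k ≤ W) → ∑ k ∈ s, f k ≤ W := by
    intro s f hf
    induction s using Finset.cons_induction with
    | empty => exact bot_le
    | cons a s ha ih =>
      rw [Finset.sum_cons]
      exact sup_le (hf a (Finset.mem_cons_self a s))
        (ih fun k hk => hf k (Finset.mem_cons_of_mem hk))
  apply h2
  intro k hk
  have hk' : k ≤ b := Nat.lt_succ_iff.1 (Finset.mem_range.1 hk)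
  have h3 : ∀ c : ℕ, (c : Submodule R A) ≤ 1 := by
    intro c
    induction c with
    | zero => rw [Nat.cast_zero]; exact bot_le
    | succ c ih => rw [Nat.cast_succ]; exact sup_le ih le_rfl
  calc Z ^ k * U ^ (b - k) * ((b.choose k : ℕ) : Submodule R A)
      ≤ Z ^ k * U ^ (b - k) * 1 := mul_le_mul_right (h3 _) _
    _ = Z ^ k * U ^ (b - k) := mul_one _
    _ ≤ W := h k hk'

end Vale.Agent.P181.R2.H940
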