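import Vale.Agent.P181.R2.H280.NDefs
import Vale.Agent.P181.R2.H940.NCore

/-!
Row N6: descent on the exponent of the last variables, all numbers of rows.
-/

set_option autoImplicit false

open MvPolynomial

namespace Vale.Agent.P181.TN

open Vale.Agent.P181 Vale.Agent.P181.H536 Vale.Agent.P181.H280

/-- A submodule which contains all `w * A` contains all forms of degree `b`. -/
theorem linS_pow_le {n : ℕ} (b : ℕ) (W : Submodule ℂ (Sn n))
    (h : ∀ k, k ≤ b → ∀ w ∈ ZZ n ^ k, ∀ A ∈ U2 n ^ (b - k), w * A ∈ W) :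
    linS (n + 2) ^ b ≤ W := by
  rw [linS_eq]
  apply Vale.Agent.P181.R2.H940.sup_pow_le
  intro k hk
  rw [Submodule.mul_le]
  intro w hw A hA
  exact h k hk w hw A hA

/-- **Descent.** -/
theorem descent {n m b : ℕ} (F : Fm n (m + 1)) (h : ∀ k, k ≤ b → Top b k F →
    ∀ w ∈ ZZ n ^ k, ∀ A ∈ U2 n ^ (b - k), Van b (F.curryLeft (w * A))) : Van b F := by
  have h1 : ∀ N k, k ≤ b → b - k ≤ N → ∀ w ∈ ZZ n ^ k, ∀ A ∈ U2 n ^ (b - k),
      Van b (F.curryLeft (w * A)) := by
    intro N
    induction N with
    | zero =>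
      intro k hk hn
      apply h k hk
      intro j hj hjb
      omega
    | succ N ih =>
      intro k hk hn
      apply h k hk
      intro j hj hjb w hw A hA
      exact ih j hjb (by omega) w hw A hA
  intro P hP
  let W : Submodule ℂ (Sn n) :=
    LinearMap.ker ({ toFun := fun u => F.curryLeft u (fun i => P i.succ)
                     map_add' := fun x y => by rw [map_add]; rfl
                     map_smul' := fun c x => by rw [map_smul]; rfl } : Sn n →ₗ[ℂ] ℂ)
  have h2 : linS (n + 2) ^ b ≤ W := by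
    apply linS_pow_le
    intro k hk w hw A hA
    exact h1 b k hk (by omega) w hw A hA (fun i => P i.succ) (fun i => hP i.succ)
  have h3 : F.curryLeft (P 0) (fun i => P i.succ) = 0 := h2 (hP 0)
  rw [MultilinearMap.curryLeft_apply] at h3
  rw [← h3]
  congr 1
  funext i
  refine Fin.cases ?_ (fun i => ?_) i
  · rfl
  · rfl

end Vale.Agent.P181.TN
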