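import Vale.Agent.P181.R2.H280.NDefs
import Vale.Agent.P181.R2.H780.Inv

/-!
Row N8: the known tail theorem, and the passage to highest weight vectors, all numbers of rows.
-/

set_option autoImplicit false

open scoped TensorProduct

namespace Vale.Agent.P181.TN

open MvPolynomial Vale.Agent.P181 Vale.Agent.P181.H536 Vale.Agent.P181.H280 Vale.Agent.P181.H780

/-- The known tail theorem. -/
theorem tree {n N b t a : ℕ} (hN : 1 ≤ N) (ht : t + N ≤ b) (ha : a ≤ N + 1) : KK n a b t := by
  intro F hs _ hH hK P hP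
  have hL : Low n b t F := by
    intro c hc
    have h1 := hH 2 two_ne_zero (mons c) (fun i => by
      rw [mons]
      exact prod_mem_pow _ _ (fun j => X_mem_linS _))
    have h2 := scal_mons (n := n) (2 : ℂ) c F
    rw [h2] at h1
    have h3 : ((2 : ℂ) ^ zcount c - 2 ^ t) * F (mons c) = 0 := by
      rw [sub_mul, h1, sub_self]
    refine (mul_eq_zero.1 h3).resolve_left ?_
    intro h4
    rw [sub_eq_zero] at h4
    have h5 : (2 : ℕ) ^ zcount c = 2 ^ t := by exact_mod_cast h4
    exact absurd (Nat.pow_right_injective le_rfl h5) (by omega)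
  have hK' : IsK (Submodule.span ℂ {(X 0 : MvPolynomial (Fin (n + 2)) ℂ), X 1} ⊔ ZZ n) b F := by
    rw [sup_eq]
    exact hK
  refine firstOrder_main (setup n) (N := N) hN ht a ha F ⟨hs, hK', good_of_low hL⟩ P ?_
  intro i
  rw [sup_eq]
  exact hP i

/-- Injectivity on highest weight vectors. -/
theorem injOn_of_KK {n a b : ℕ} (lam : Fin (n + 2) → ℕ)
    (hK : KK n a b (∑ i : Fin n, lam i.succ.succ)) (x : Pleth a b (n + 2))
    (hx : x ∈ hwSpace lam (plethAct a b (n + 2)))
    (h0 : foulkesHowe a b (Fin (n + 2) → ℂ) x = 0) : x = 0 := by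
  obtain ⟨l, rfl⟩ := exists_elOf x
  apply elOf_eq_zero
  refine hK (formOf l) (formOf_symm l) ?_ ?_ (isK_formOf l h0)
  · intro z hz P hP
    exact formOf_shear (n := n) lam l hx (sh n z) (isShear_sh hz) P hP
  · intro c hc P hP
    exact formOf_scal (n := n) lam l hx c hc P hP

theorem plethMult_of_KK {n a b : ℕ} (lam : Fin (n + 2) → ℕ)
    (hK : KK n a b (∑ i : Fin n, lam i.succ.succ)) :
    plethMult a b (n + 2) lam ≤ plethMult b a (n + 2) lam :=
  finrank_le_of_inj (foulkesHowe a b (Fin (n + 2) → ℂ)) _ _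
    (fun x hx => foulkesHowe_hwSpace lam x hx)
    (fun x hx h0 => injOn_of_KK lam hK x hx h0)

end Vale.Agent.P181.TN
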