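import Vale.Agent.P181.R2.H151.MDefs
import Vale.Agent.P181.Bdl.B1

/-!
Row M2: McKay's lemma. `QQ 0 b F` forces `F` to vanish in degree `b` when `a ≤ b`.
-/

set_option autoImplicit false

open MvPolynomial

namespace Vale.Agent.P181.TM

open Vale.Agent.P181 Vale.Agent.P181.H536 Vale.Agent.P181.H280 Vale.Agent.P181.TN

/-- **M2.** -/
theorem lemmaV {n a b : ℕ} (hb : 1 ≤ b) (hab : a ≤ b) (F : Fm n a) (hQ : QQ 0 b F) :
    Van b F := by
  have hz : ∀ (x : ℂ) (z : Sn n), z ∈ ZZ n → ∀ h : Fin a → Sn n, Dg (b - 1) h →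
      F (fun i => (ln n x + z) * h i) = 0 := by
    intro x z hz h hh
    obtain ⟨p, hp, hpe⟩ := hQ x z hz h hh
    have h0 : p = 0 := by
      by_contra hne
      have h1 : (0 : WithBot ℕ) ≤ p.degree := Polynomial.zero_le_degree_iff.2 hne
      have h2 : p.degree < (0 : WithBot ℕ) := by simpa using hp
      exact absurd h1 (not_le.2 h2)
    have h3 := hpe 1
    rw [h0, Polynomial.eval_zero, one_smul] at h3
    exact h3.symm
  have hgen : ∀ ξ ∈ linS (n + 2), ∀ h : Fin a → Sn n, Dg (b - 1) h →
      F (fun i => ξ * h i) = 0 := by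
    intro ξ hξ h hh
    rw [linS_eq] at hξ
    obtain ⟨u, hu, z, hzz, rfl⟩ := Submodule.mem_sup.1 hξ
    obtain ⟨α, β, rfl⟩ := Submodule.mem_span_pair.1 hu
    obtain ⟨P, hP⟩ := poly_exists F (fun i =>
      (Polynomial.C (α • X 0 + β • X 1 + z : Sn n) + Polynomial.X * Polynomial.C (X 0)) *
        Polynomial.C (h i))
    have hP' : ∀ e : ℂ, P.eval e = F (fun i => ((α • X 0 + β • X 1 + z : Sn n) + e • X 0) *
        h i) := by
      intro e
      rw [hP]
      congr 1
      funext i
      rw [Polynomial.eval_mul, Polynomial.eval_add, Polynomial.eval_C, Polynomial.eval_mul,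
        Polynomial.eval_X, Polynomial.eval_C, Polynomial.eval_C, Algebra.smul_def e (X 0 : Sn n)]
    have hP0 : P = 0 := by
      apply Polynomial.eq_of_infinite_eval_eq
      apply Set.Infinite.mono (s := ({-α} : Set ℂ)ᶜ)
      · intro e he
        rw [Set.mem_ofPred_eq, Polynomial.eval_zero, hP']
        have hne : α + e ≠ 0 := by
          intro hj
          apply he
          rw [Set.mem_singleton_iff]
          linear_combination hj
        have h1 : ∀ i, ((α • X 0 + β • X 1 + z : Sn n) + e • X 0) * h i =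
            (α + e) • ((ln n (β / (α + e)) + (α + e)⁻¹ • z) * h i) := by
          intro i
          rw [← smul_mul_assoc]
          congr 1
          rw [smul_add, ln, smul_add, smul_smul, smul_smul, mul_div_cancel₀ _ hne,
            mul_inv_cancel₀ hne, one_smul, add_smul]
          abel
        rw [show (fun i => ((α • X 0 + β • X 1 + z : Sn n) + e • X 0) * h i) =
          fun i => (α + e) • ((ln n (β / (α + e)) + (α + e)⁻¹ • z) * h i) from funext h1,
          MultilinearMap.map_smul_univ, hz _ _ ((ZZ n).smul_mem _ hzz) h hh, smul_zero]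
      · exact (Set.finite_singleton _).infinite_compl
    have h3 := hP' 0
    rw [hP0, Polynomial.eval_zero] at h3
    rw [h3]
    congr 1
    funext i
    rw [zero_smul, add_zero]
  refine claimA (linS (n + 2)) F (fun _ => b) (fun _ => 1) ?_ ?_
  · intro j
    rw [Finset.sum_const, smul_eq_mul, mul_one, Fin.card_Iic]
    have := j.2
    omega
  · intro ξ hξ P hP
    have := hgen ξ hξ P hP
    simpa only [pow_one] using this

end Vale.Agent.P181.TM
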