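import Vale.Agent.P181.R2.H151.Core

/-!
Row J2: a family whose members lie in the kernel vanishes as soon as the kernel vanishes.
-/

set_option autoImplicit false

open MvPolynomial

namespace Vale.Agent.P181.TM

open Vale.Agent.P181 Vale.Agent.P181.H536 Vale.Agent.P181.H280 Vale.Agent.P181.TN

/-- A multilinear map vanishing on generators vanishes on the spans. -/
lemma zero_of_spans {κ : Type*} [Fintype κ] {M' N' : Type*} [AddCommGroup M']
    [Module ℂ M'] [AddCommGroup N'] [Module ℂ N'] (Φ : MultilinearMap ℂ (fun _ : κ => M') N')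
    (S : κ → Set M') (h : ∀ w : κ → M', (∀ i, w i ∈ S i) → Φ w = 0) (w : κ → M')
    (hw : ∀ i, w i ∈ Submodule.span ℂ (S i)) : Φ w = 0 := by
  classical
  have h1 : ∀ i, ∃ l : (S i) →₀ ℂ,
      Finsupp.linearCombination ℂ (Subtype.val : (S i) → M') l = w i := by
    intro i
    rw [← Finsupp.mem_span_iff_linearCombination]
    exact hw i
  choose l hl using h1
  have h2 : w = fun i => ∑ r ∈ (l i).support, (l i r) • (r : M') := by
    funext i
    rw [← hl i, Finsupp.linearCombination_apply, Finsupp.sum]
  rw [h2, MultilinearMap.map_sum_finset]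
  apply Finset.sum_eq_zero
  intro r _
  rw [MultilinearMap.map_smul_univ, h _ (fun i => (r i).2), smul_zero]

/-- Products homogeneous for the scaling of the last variables. -/
def HS (n d : ℕ) : Set (Sn n) :=
  {x | ∃ k, k ≤ d ∧ ∃ w ∈ ZZ n ^ k, ∃ A ∈ U2 n ^ (d - k), x = w * A}

lemma HS_span {n d : ℕ} : linS (n + 2) ^ d ≤ Submodule.span ℂ (HS n d) := by
  apply linS_pow_le
  intro k hk w hw A hA
  exact Submodule.subset_span ⟨k, hk, w, hw, A, hA, rfl⟩

lemma HS_mem {n d : ℕ} {x : Sn n} (hx : x ∈ HS n d) : x ∈ linS (n + 2) ^ d := by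
  obtain ⟨k, hk, w, hw, A, hA, rfl⟩ := hx
  exact wA_mem hk hw hA

lemma HS_scal {n d : ℕ} {x : Sn n} (hx : x ∈ HS n d) : ∃ k : ℕ, ∀ c : ℂ, scal n c x = c ^ k • x := by
  obtain ⟨k, hk, w, hw, A, hA, rfl⟩ := hx
  refine ⟨k, fun c => ?_⟩
  rw [map_mul, scal_ZZ_pow hw, scal_U2 c hA, smul_mul_assoc]

/-- A family of negative weight vanishes. -/
lemma neg_weight {n h m b τ k : ℕ} (hk : τ < k) (d : Fin h → ℕ) (R : Fam n h m)
    (hR : ∀ c : ℂ, c ≠ 0 → ∀ B : Fin h → Sn n, DgV d B → ∀ P : Fin m → Sn n, Dg b P →
      c ^ k * R (fun i => scal n c (B i)) (fun i => scal n c (P i)) = c ^ τ * R B P) :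
    ∀ B : Fin h → Sn n, DgV d B → Van b (R B) := by
  have h1 : ∀ B : Fin h → Sn n, (∀ i, B i ∈ HS n (d i)) → ∀ P : Fin m → Sn n,
      (∀ i, P i ∈ HS n b) → R B P = 0 := by
    intro B hB P hP
    choose e he using fun i => HS_scal (hB i)
    choose f hf using fun i => HS_scal (hP i)
    have h2 := hR 2 two_ne_zero B (fun i => HS_mem (hB i)) P (fun i => HS_mem (hP i))
    have h3 : (fun i => scal n 2 (B i)) = fun i => (2 : ℂ) ^ e i • B i := by
      funext i; exact he i 2
    have h4 : (fun i => scal n 2 (P i)) = fun i => (2 : ℂ) ^ f i • P i := by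
      funext i; exact hf i 2
    rw [h3, h4, MultilinearMap.map_smul_univ, MultilinearMap.map_smul_univ,
      _root_.smul_apply, smul_eq_mul, smul_eq_mul, Finset.prod_pow_eq_pow_sum,
      Finset.prod_pow_eq_pow_sum, ← mul_assoc, ← mul_assoc, ← pow_add, ← pow_add] at h2
    have h5 : ((2 : ℂ) ^ (k + ∑ i, f i + ∑ i, e i) - 2 ^ τ) * R B P = 0 := by
      rw [sub_mul, sub_eq_zero]
      exact h2
    refine (mul_eq_zero.1 h5).resolve_left ?_
    intro h6
    rw [sub_eq_zero] at h6
    have h7 : (2 : ℕ) ^ (k + ∑ i, f i + ∑ i, e i) = 2 ^ τ := by exact_mod_cast h6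
    have h8 := Nat.pow_right_injective le_rfl h7
    omega
  have h2 : ∀ B : Fin h → Sn n, (∀ i, B i ∈ HS n (d i)) → ∀ P : Fin m → Sn n,
      Dg b P → R B P = 0 := by
    intro B hB P hP
    exact zero_of_spans (R B) (fun _ => HS n b) (fun w hw => h1 B hB w hw) P
      (fun i => HS_span (hP i))
  intro B hB P hP
  let ev : Fm n m →ₗ[ℂ] ℂ :=
    { toFun := fun F => F P
      map_add' := fun _ _ => rfl
      map_smul' := fun _ _ => rfl }
  have h3 := zero_of_spans (ev.compMultilinearMap R) (fun i => HS n (d i))
    (fun w hw => h2 w hw P hP) B (fun i => HS_span (hB i))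
  exact h3

theorem zero_of_isK_aux {n m b : ℕ} : ∀ {h τ : ℕ} (d : Fin h → ℕ) (R : Fam n h m),
    (∀ B, IsSymm (R B)) → InvR b d R → HomR b d τ R →
    (∀ B, DgV d B → IsK (linS (n + 2)) b (R B)) → (∀ t', t' ≤ τ → KK2 n m b t') →
    ∀ B, DgV d B → Van b (R B) := by
  intro h
  induction h with
  | zero =>
    intro τ d R hsy hI hH hK hKK B hB
    refine hKK τ le_rfl (R B) (hsy B) ?_ ?_ (hK B hB)
    · intro z hz w hw P hP
      have h1 := hI z hz w hw B hB P hP
      have h2 : (fun i => shr n z w (B i)) = B := Subsingleton.elim _ _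
      rw [h2] at h1
      exact h1
    · intro c hc P hP
      have h1 := hH c hc B hB P hP
      have h2 : (fun i => scal n c (B i)) = B := Subsingleton.elim _ _
      rw [h2] at h1
      exact h1
  | succ h ih =>
    intro τ d R hsy hI hH hK hKK
    set e := d 0 with he
    let d' : Fin h → ℕ := fun i => d i.succ
    have hcons : ∀ {x : Sn n}, x ∈ linS (n + 2) ^ e → ∀ {B : Fin h → Sn n}, DgV d' B →
        DgV d (Fin.cons x B : Fin (h + 1) → Sn n) := by
      intro x hx B hB i
      refine Fin.cases ?_ (fun j => ?_) i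
      · simpa using hx
      · simpa using hB j
    have hshr : ∀ (z w x : Sn n) (B : Fin h → Sn n),
        (fun i : Fin (h + 1) => shr n z w ((Fin.cons x B : Fin (h + 1) → Sn n) i)) =
          Fin.cons (shr n z w x) (fun i => shr n z w (B i)) := by
      intro z w x B
      funext i
      refine Fin.cases ?_ (fun j => ?_) i
      · simp only [Fin.cons_zero]
      · simp only [Fin.cons_succ]
    have hscal : ∀ (c : ℂ) (x : Sn n) (B : Fin h → Sn n),
        (fun i : Fin (h + 1) => scal n c ((Fin.cons x B : Fin (h + 1) → Sn n) i)) =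
          Fin.cons (scal n c x) (fun i => scal n c (B i)) := by
      intro c x B
      funext i
      refine Fin.cases ?_ (fun j => ?_) i
      · simp only [Fin.cons_zero]
      · simp only [Fin.cons_succ]
    have hlin_add : ∀ (x y : Sn n) (B : Fin h → Sn n) (P : Fin m → Sn n),
        R (Fin.cons (x + y) B) P = R (Fin.cons x B) P + R (Fin.cons y B) P := by
      intro x y B P
      have h1 : R.curryLeft (x + y) B = R.curryLeft x B + R.curryLeft y B := by
        rw [map_add]; rfl
      exact congrArg (fun F : Fm n m => F P) h1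
    have hlin_smul : ∀ (c : ℂ) (x : Sn n) (B : Fin h → Sn n) (P : Fin m → Sn n),
        R (Fin.cons (c • x) B) P = c * R (Fin.cons x B) P := by
      intro c x B P
      have h1 : R.curryLeft (c • x) B = c • R.curryLeft x B := by
        rw [map_smul]; rfl
      exact congrArg (fun F : Fm n m => F P) h1
    have hstep : ∀ k, k ≤ e → (∀ j, k < j → j ≤ e → ∀ w ∈ ZZ n ^ j, ∀ A ∈ U2 n ^ (e - j),
        ∀ B : Fin h → Sn n, DgV d' B → Van b (R (Fin.cons (w * A) B))) →
        ∀ v ∈ ZZ n ^ k, ∀ A ∈ U2 n ^ (e - k),
        ∀ B : Fin h → Sn n, DgV d' B → Van b (R (Fin.cons (v * A) B)) := by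
      intro k hk hT v hv A hA
      have hvA : v * A ∈ linS (n + 2) ^ e := wA_mem hk hv hA
      have hscal' : ∀ c : ℂ, c ≠ 0 → ∀ B : Fin h → Sn n, DgV d' B → ∀ P : Fin m → Sn n,
          Dg b P → c ^ k * (R.curryLeft (v * A)) (fun i => scal n c (B i))
            (fun i => scal n c (P i)) = c ^ τ * (R.curryLeft (v * A)) B P := by
        intro c hc B hB P hP
        have h1 := hH c hc (Fin.cons (v * A) B) (hcons hvA hB) P hP
        rw [hscal, map_mul, scal_ZZ_pow hv, scal_U2 c hA, smul_mul_assoc, hlin_smul] at h1
        exact h1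
      rcases Nat.lt_or_ge τ k with hkτ | hkτ
      · exact neg_weight hkτ d' (R.curryLeft (v * A)) hscal'
      · refine ih (τ := τ - k) d' (R.curryLeft (v * A)) (fun B => hsy _) ?_ ?_
          (fun B hB => hK _ (hcons hvA hB)) (fun t' ht' => hKK t' (by omega))
        · intro z hz w hw B hB P hP
          have h1 := hI z hz w hw (Fin.cons (v * A) B) (hcons hvA hB) P hP
          rw [hshr] at h1
          change R (Fin.cons (v * A) (fun i => shr n z w (B i))) (fun i => shr n z w (P i)) =
            R (Fin.cons (v * A) B) P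
          rw [← h1]
          obtain ⟨C, hC, hC'⟩ := shr_expand hz hw (e - k) A hA
          have h2 : shr n z w (v * A) = v * A + ∑ j ∈ Finset.range (e - k), v * C j := by
            rw [map_mul, shr_ZZ_pow hv, hC', mul_add, Finset.mul_sum]
          set B' : Fin h → Sn n := fun i => shr n z w (B i) with hB'
          set P' : Fin m → Sn n := fun i => shr n z w (P i) with hP'
          have hB'd : DgV d' B' := DgV_shr hz hw hB
          have hP'd : Dg b P' := Dg_shr hz hw hP
          have h4 : ∀ j ∈ Finset.range (e - k), R (Fin.cons (v * C j) B') P' = 0 := by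
            intro j hj
            rw [Finset.mem_range] at hj
            have h5 := hC j hj
            generalize C j = y at h5 ⊢
            induction h5 using Submodule.mul_induction_on' with
            | mem_mul_mem x hx y hy =>
              rw [← mul_assoc]
              refine hT (k + (j + 1)) (by omega) (by omega) (v * x) ?_ y ?_ _ hB'd _ hP'd
              · rw [pow_add]
                exact Submodule.mul_mem_mul hv hx
              · have h6 : e - (k + (j + 1)) = e - k - (j + 1) := by omega
                rw [h6]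
                exact hy
            | add x _ y _ hx hy =>
              rw [mul_add, hlin_add, hx, hy, add_zero]
          have h7 : ∀ T : Finset ℕ, (∀ j ∈ T, R (Fin.cons (v * C j) B') P' = 0) →
              R (Fin.cons (∑ j ∈ T, v * C j) B') P' = 0 := by
            intro T
            induction T using Finset.induction_on with
            | empty =>
              intro _
              rw [Finset.sum_empty]
              have h8 := hlin_smul 0 0 B' P'
              rw [zero_smul, zero_mul] at h8
              exact h8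
            | insert a T ha ihT =>
              intro hj
              rw [Finset.sum_insert ha, hlin_add, hj a (Finset.mem_insert_self a T),
                ihT (fun j hjT => hj j (Finset.mem_insert_of_mem hjT)), add_zero]
          rw [h2, hlin_add, h7 _ h4, add_zero]
        · intro c hc B hB P hP
          have h1 := hscal' c hc B hB P hP
          have hck : c ^ k ≠ 0 := pow_ne_zero _ hc
          apply mul_left_cancel₀ hck
          rw [h1, ← mul_assoc, ← pow_add, Nat.add_sub_cancel' hkτ]
    have hmain : ∀ N k, k ≤ e → e - k ≤ N → ∀ v ∈ ZZ n ^ k, ∀ A ∈ U2 n ^ (e - k),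
        ∀ B : Fin h → Sn n, DgV d' B → Van b (R (Fin.cons (v * A) B)) := by
      intro N
      induction N with
      | zero =>
        intro k hk hN
        exact hstep k hk (fun j hj hje => by omega)
      | succ N ihN =>
        intro k hk hN
        exact hstep k hk (fun j hj hje => ihN j hje (by omega))
    intro B hB P hP
    let W : Submodule ℂ (Sn n) :=
      LinearMap.ker ({ toFun := fun u => R (Fin.cons u (fun i => B i.succ)) P
                       map_add' := fun x y => hlin_add x y _ P
                       map_smul' := fun c x => hlin_smul c x _ P } : Sn n →ₗ[ℂ] ℂ)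
    have h2 : linS (n + 2) ^ e ≤ W := by
      apply linS_pow_le
      intro k hk w hw A hA
      exact hmain e k hk (by omega) w hw A hA (fun i => B i.succ) (fun i => hB i.succ) P hP
    have h3 : R (Fin.cons (B 0) (fun i => B i.succ)) P = 0 := h2 (hB 0)
    rw [← h3]
    congr 2
    funext i
    refine Fin.cases ?_ (fun i => ?_) i
    · rfl
    · rfl

/-- **J2.** -/
theorem zero_of_isK {n h m b τ : ℕ} (d : Fin h → ℕ) (R : Fam n h m)
    (hsy : ∀ B, IsSymm (R B)) (hI : InvR b d R) (hH : HomR b d τ R)
    (hK : ∀ B, DgV d B → IsK (linS (n + 2)) b (R B))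
    (hKK : ∀ t', t' ≤ τ → KK2 n m b t') : ∀ B, DgV d B → Van b (R B) :=
  zero_of_isK_aux d R hsy hI hH hK hKK

end Vale.Agent.P181.TM
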