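import Vale.Agent.P181.R2.H556.ThreeDefs
import Mathlib.LinearAlgebra.Lagrange

/-!
Rows R6a (descent on the exponent of the third variable) and R8a (extraction of coefficients).
-/

set_option autoImplicit false

open MvPolynomial

namespace Vale.Agent.P181.R2.H940

open Vale.Agent.P181 Vale.Agent.P181.H536 Vale.Agent.P181.H280 Vale.Agent.P181.T3R

/-- A submodule which contains all `X 2 ^ k * A` contains all forms of degree `b`. -/
lemma linS_pow_le (b : ℕ) : ∀ W : Submodule ℂ S3,
    (∀ k, k ≤ b → ∀ A ∈ U2 ^ (b - k), X 2 ^ k * A ∈ W) → linS 3 ^ b ≤ W := by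
  induction b with
  | zero =>
    intro W h x hx
    have h1 := h 0 le_rfl x (by simpa using hx)
    simpa using h1
  | succ b ih =>
    intro W h
    rw [pow_succ]
    rw [Submodule.mul_le]
    intro x hx l hl
    -- the linear forms `l` with `linS ^ b * l ≤ W`
    have key : ∀ l : S3, (∀ k, k ≤ b → ∀ A ∈ U2 ^ (b - k), X 2 ^ k * A * l ∈ W) → x * l ∈ W := by
      intro l hl
      have h2 := ih (W.comap (LinearMap.mulRight ℂ l)) (by
        intro k hk A hA
        rw [Submodule.mem_comap, LinearMap.mulRight_apply]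
        exact hl k hk A hA)
      have h3 := h2 hx
      rw [Submodule.mem_comap, LinearMap.mulRight_apply] at h3
      exact h3
    have hU : ∀ u ∈ U2, x * u ∈ W := by
      intro u hu
      apply key
      intro k hk A hA
      rw [mul_assoc]
      apply h k (by omega)
      rw [show b + 1 - k = (b - k) + 1 by omega, pow_succ]
      exact Submodule.mul_mem_mul hA hu
    have hZ : x * X 2 ∈ W := by
      apply key
      intro k hk A hA
      have h4 : (X 2 : S3) ^ k * A * X 2 = X 2 ^ (k + 1) * A := by ring
      rw [h4]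
      apply h (k + 1) (by omega)
      rw [show b + 1 - (k + 1) = b - k by omega]
      exact hA
    rw [linS] at hl
    induction hl using Submodule.span_induction with
    | mem l hl =>
      obtain ⟨i, rfl⟩ := hl
      fin_cases i
      · exact hU _ (Submodule.subset_span (by simp))
      · exact hU _ (Submodule.subset_span (by simp))
      · exact hZ
    | zero => rw [mul_zero]; exact W.zero_mem
    | add l₁ l₂ _ _ h1 h2 => rw [mul_add]; exact W.add_mem h1 h2
    | smul c l _ h1 => rw [mul_smul_comm]; exact W.smul_mem c h1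

/-- **R6a, descent.** -/
theorem descent {m b : ℕ} (F : Fm (m + 1)) (h : ∀ k, k ≤ b → Top b k F → ∀ A ∈ U2 ^ (b - k),
    Van b (F.curryLeft (X 2 ^ k * A))) : Van b F := by
  have h1 : ∀ n k, k ≤ b → b - k ≤ n → ∀ A ∈ U2 ^ (b - k), Van b (F.curryLeft (X 2 ^ k * A)) := by
    intro n
    induction n with
    | zero =>
      intro k hk hn
      apply h k hk
      intro j hj hjb
      omega
    | succ n ih =>
      intro k hk hn
      apply h k hk
      intro j hj hjb A hA
      exact ih j hjb (by omega) A hA
  intro P hP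
  let W : Submodule ℂ S3 :=
    LinearMap.ker ({ toFun := fun u => F.curryLeft u (fun i => P i.succ)
                     map_add' := fun x y => by rw [map_add]; rfl
                     map_smul' := fun c x => by rw [map_smul]; rfl } : S3 →ₗ[ℂ] ℂ)
  have h2 : linS 3 ^ b ≤ W := by
    apply linS_pow_le
    intro k hk A hA
    exact h1 b k hk (by omega) A hA (fun i => P i.succ) (fun i => hP i.succ)
  have h3 : F.curryLeft (P 0) (fun i => P i.succ) = 0 := h2 (hP 0)
  rw [MultilinearMap.curryLeft_apply] at h3
  rw [← h3]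
  congr 1
  funext i
  refine Fin.cases ?_ (fun i => ?_) i
  · rfl
  · rfl

/-- **R8a, extraction of coefficients.** -/
theorem extract {a d N : ℕ} (W : Submodule ℂ (Fm a)) (Φ : ℂ → Fm a) (hΦ : ∀ ε, Φ ε ∈ W)
    (hp : ∀ P : Fin a → S3, Dg d P → ∃ p : Polynomial ℂ, p.natDegree ≤ N ∧
      ∀ ε, p.eval ε = Φ ε P) :
    ∃ Ψ : ℕ → Fm a, (∀ j, Ψ j ∈ W) ∧ ∀ P : Fin a → S3, Dg d P → ∀ ε : ℂ,
      Φ ε P = ∑ j ∈ Finset.range (N + 1), ε ^ j * Ψ j P := by
  classical
  let v : Fin (N + 1) → ℂ := fun i => ((i : ℕ) : ℂ)
  have hv : Set.InjOn v (Finset.univ : Finset (Fin (N + 1))) := by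
    intro i _ j _ hij
    exact Fin.ext (Nat.cast_injective hij)
  let L : Fin (N + 1) → Polynomial ℂ := fun i => Lagrange.basis Finset.univ v i
  have hL : ∀ i, (L i).natDegree < N + 1 := by
    intro i
    have h1 : (L i).degree = ((Finset.univ : Finset (Fin (N + 1))).card - 1 : ℕ) :=
      Lagrange.degree_basis hv (Finset.mem_univ i)
    rw [Finset.card_univ, Fintype.card_fin, Nat.add_sub_cancel] at h1
    have h2 := Polynomial.natDegree_eq_of_degree_eq_some h1
    omega
  refine ⟨fun j => ∑ i, (L i).coeff j • Φ (v i), ?_, ?_⟩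
  · intro j
    exact W.sum_mem fun i _ => W.smul_mem _ (hΦ _)
  · intro P hP ε
    obtain ⟨p, hpN, hpe⟩ := hp P hP
    have h1 : p = Lagrange.interpolate Finset.univ v (fun i => p.eval (v i)) := by
      apply Lagrange.eq_interpolate hv
      rw [Finset.card_univ, Fintype.card_fin]
      refine lt_of_le_of_lt Polynomial.degree_le_natDegree ?_
      exact_mod_cast Nat.lt_succ_of_le hpN
    rw [← hpe ε]
    conv_lhs => rw [h1]
    rw [Lagrange.interpolate_apply, Polynomial.eval_finsetSum]
    have h2 : ∀ i, Polynomial.eval ε (Polynomial.C (Polynomial.eval (v i) p) *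
        Lagrange.basis Finset.univ v i) =
        ∑ j ∈ Finset.range (N + 1), ε ^ j * ((L i).coeff j * Φ (v i) P) := by
      intro i
      rw [Polynomial.eval_mul, Polynomial.eval_C, hpe (v i),
        Polynomial.eval_eq_sum_range' (hL i), Finset.mul_sum]
      apply Finset.sum_congr rfl
      intro j _
      ring
    rw [Finset.sum_congr rfl fun i _ => h2 i, Finset.sum_comm]
    apply Finset.sum_congr rfl
    intro j _
    rw [← Finset.mul_sum, sum_apply]
    congr 1

end Vale.Agent.P181.R2.H940
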