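import Vale.Agent.P181.R2.H780.Three

/-!
Row C6: passage from forms invariant under all shears to highest weight vectors, three variables.
-/

set_option autoImplicit false

open scoped TensorProduct

namespace Vale.Agent.P181.T3R

open MvPolynomial Vale.Agent.P181 Vale.Agent.P181.H536 Vale.Agent.P181.H280 Vale.Agent.P181.H780

lemma isShear_of (g : S3 →ₐ[ℂ] S3) (α β : ℂ) (h0 : g (X 0) = X 0 + α • X 2)
    (h1 : g (X 1) = X 1 + β • X 2) (h2 : g (X 2) = X 2) :
    IsShear (Submodule.span ℂ {(X 0 : MvPolynomial (Fin (1 + 2)) ℂ), X 1}) (ZZ 1) g := by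
  have hZ : ∀ z ∈ ZZ 1, g z = z := by
    intro z hz
    rw [ZZ] at hz
    induction hz using Submodule.span_induction with
    | mem x hx =>
      obtain ⟨i, rfl⟩ := hx
      fin_cases i
      exact h2
    | zero => rw [map_zero]
    | add x y _ _ hx hy => rw [map_add, hx, hy]
    | smul c x _ hx => rw [map_smul, hx]
  refine ⟨hZ, ?_⟩
  intro u hu
  obtain ⟨p, q, rfl⟩ := Submodule.mem_span_pair.1 hu
  have hz : (X 2 : S3) ∈ ZZ 1 := Submodule.subset_span ⟨0, rfl⟩
  have h3 : g (p • X 0 + q • X 1) - (p • X 0 + q • X 1) = (p * α + q * β) • (X 2 : S3) := by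
    rw [map_add, map_smul, map_smul]
    have e0 : g (X 0) = X 0 + α • X 2 := h0
    have e1 : g (X 1) = X 1 + β • X 2 := h1
    rw [e0, e1, smul_add, smul_add, smul_smul, smul_smul, add_smul]
    abel
  exact h3 ▸ (ZZ 1).smul_mem _ hz

/-- Injectivity on highest weight vectors from the vanishing of all forms in the kernel which are
invariant under the shears `X 0 ↦ X 0 + α X 2`, `X 1 ↦ X 1 + β X 2`. -/
theorem injOn_of_shears {a b : ℕ} (lam : Fin 3 → ℕ)
    (hK : ∀ F : Fm a, IsSymm F →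
      (∀ (g : S3 →ₐ[ℂ] S3) (α β : ℂ), g (X 0) = X 0 + α • X 2 → g (X 1) = X 1 + β • X 2 →
        g (X 2) = X 2 → ∀ P : Fin a → S3, Dg b P → F (fun i => g (P i)) = F P) →
      Hom b (lam 2) F → IsK (linS 3) b F → Van b F)
    (x : Pleth a b 3) (hx : x ∈ hwSpace lam (plethAct a b 3))
    (h0 : foulkesHowe a b (Fin 3 → ℂ) x = 0) : x = 0 := by
  obtain ⟨l, rfl⟩ := exists_elOf x
  apply elOf_eq_zero
  refine hK (formOf l) (formOf_symm l) ?_ ?_ (isK_formOf l h0)
  · intro g α β e0 e1 e2 P hP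
    exact formOf_shear (n := 1) lam l hx g (isShear_of g α β e0 e1 e2) P hP
  · intro c hc P hP
    have h1 := formOf_scal (n := 1) lam l hx c hc P hP
    have h2 : (∑ i : Fin 1, lam i.succ.succ) = lam 2 := by
      rw [Fin.sum_univ_one]; rfl
    rw [h2, tau_eq_scal] at h1
    exact h1

theorem plethMult_of_inj {a b : ℕ} (lam : Fin 3 → ℕ)
    (h : ∀ x ∈ hwSpace lam (plethAct a b 3), foulkesHowe a b (Fin 3 → ℂ) x = 0 → x = 0) :
    plethMult a b 3 lam ≤ plethMult b a 3 lam :=
  finrank_le_of_inj (foulkesHowe a b (Fin 3 → ℂ)) _ _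
    (fun x hx => foulkesHowe_hwSpace lam x hx) (fun x hx h0 => h x hx h0)

end Vale.Agent.P181.T3R
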