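import Vale.Agent.P181.R2.H940.CTop
import Vale.Agent.P181.R2.H188.CDefs

/-!
Row C6 for the definitions of CDefs.
-/

set_option autoImplicit false

open scoped TensorProduct

namespace Vale.Agent.P181.T3R

open MvPolynomial Vale.Agent.P181 Vale.Agent.P181.H536 Vale.Agent.P181.H280 Vale.Agent.P181.H780

theorem injOn_of_KK2 {a b : ℕ} (lam : Fin 3 → ℕ) (hK : KK2 a b (lam 2)) (x : Pleth a b 3)
    (hx : x ∈ hwSpace lam (plethAct a b 3)) (h0 : foulkesHowe a b (Fin 3 → ℂ) x = 0) : x = 0 := by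
  refine injOn_of_shears lam (fun F hs hsh hH hk => hK F hs ?_ ?_ hH hk) x hx h0
  · intro ε P hP
    exact hsh (sh ε) ε 0 (sh_X0 ε) (by rw [sh_X1, zero_smul, add_zero]) (sh_X2 ε) P hP
  · intro ε P hP
    exact hsh (sh1 ε) 0 ε (by rw [sh1_X0, zero_smul, add_zero]) (sh1_X1 ε) (sh1_X2 ε) P hP

theorem plethMult_of_KK2 {a b : ℕ} (lam : Fin 3 → ℕ) (hK : KK2 a b (lam 2)) :
    plethMult a b 3 lam ≤ plethMult b a 3 lam :=
  plethMult_of_inj lam (fun x hx h0 => injOn_of_KK2 lam hK x hx h0)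

end Vale.Agent.P181.T3R
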