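import Vale.Agent.P181.R2.H940.CTop
import Vale.Agent.P181.R2.H556.Three2Defs

/-!
Row C6 for the definitions of Three2Defs.
-/

set_option autoImplicit false

open scoped TensorProduct

namespace Vale.Agent.P181.T3R

open MvPolynomial Vale.Agent.P181 Vale.Agent.P181.H536 Vale.Agent.P181.H280 Vale.Agent.P181.H780

theorem injOn_of_KK2 {a b : ℕ} (lam : Fin 3 → ℕ) (hK : KK2 a b (lam 2)) (x : Pleth a b 3)
    (hx : x ∈ hwSpace lam (plethAct a b 3)) (h0 : foulkesHowe a b (Fin 3 → ℂ) x = 0) : x = 0 :=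
  injOn_of_shears lam
    (fun F hs hsh hH hk => hK F hs
      (fun α β P hP => hsh (sh2 α β) α β (sh2_X0 α β) (sh2_X1 α β) (sh2_X2 α β) P hP) hH hk)
    x hx h0

theorem plethMult_of_KK2 {a b : ℕ} (lam : Fin 3 → ℕ) (hK : KK2 a b (lam 2)) :
    plethMult a b 3 lam ≤ plethMult b a 3 lam :=
  plethMult_of_inj lam (fun x hx h0 => injOn_of_KK2 lam hK x hx h0)

end Vale.Agent.P181.T3R
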