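import Vale.Agent.P181.PM.Alg
import Vale.Agent.P181.H536.Poly
import Mathlib.LinearAlgebra.Lagrange

/-!
A symmetric form on binary forms which vanishes when all arguments are multiples of one form is
zero: the step from split forms with distinct roots to all forms.
-/

set_option autoImplicit false

open MvPolynomial

namespace Vale.Agent.P181.R2.H940

open Vale.Agent.P181 Vale.Agent.P181.H536

variable {A : Type*} [CommRing A] [Algebra ℂ A]

/-- Homogenisation of a polynomial in one variable. -/
noncomputable def homz (p q : A) (N : ℕ) : Polynomial ℂ →ₗ[ℂ] A where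
  toFun f := ∑ k ∈ Finset.range (N + 1), f.coeff k • (p ^ k * q ^ (N - k))
  map_add' f g := by simp only [Polynomial.coeff_add, add_smul, Finset.sum_add_distrib]
  map_smul' c f := by
    simp only [Polynomial.coeff_smul, smul_eq_mul, mul_smul, Finset.smul_sum, RingHom.id_apply]

lemma homz_apply (p q : A) (N : ℕ) (f : Polynomial ℂ) :
    homz p q N f = ∑ k ∈ Finset.range (N + 1), f.coeff k • (p ^ k * q ^ (N - k)) := rfl

lemma homz_step (p q : A) (N : ℕ) (x : ℂ) (f : Polynomial ℂ) (hf : f.natDegree ≤ N) :
    homz p q (N + 1) ((Polynomial.X + Polynomial.C x) * f) = (p + x • q) * homz p q N f := by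
  have hN : f.coeff (N + 1) = 0 := Polynomial.coeff_eq_zero_of_natDegree_lt (by omega)
  rw [add_mul, map_add]
  have h1 : homz p q (N + 1) (Polynomial.X * f) = p * homz p q N f := by
    rw [homz_apply, homz_apply, Finset.sum_range_succ', Polynomial.mul_coeff_zero,
      Polynomial.coeff_X_zero, zero_mul, zero_smul, add_zero, Finset.mul_sum]
    apply Finset.sum_congr rfl
    intro k _
    rw [mul_comm Polynomial.X f, Polynomial.coeff_mul_X, Nat.add_sub_add_right, pow_succ,
      Algebra.smul_def, Algebra.smul_def]
    ring
  have h2 : homz p q (N + 1) (Polynomial.C x * f) = (x • q) * homz p q N f := by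
    rw [homz_apply, homz_apply, Finset.sum_range_succ, Polynomial.coeff_C_mul, hN, mul_zero,
      zero_smul, add_zero, Finset.mul_sum]
    apply Finset.sum_congr rfl
    intro k hk
    rw [Finset.mem_range] at hk
    rw [Polynomial.coeff_C_mul, show N + 1 - k = (N - k) + 1 by omega, pow_succ,
      Algebra.smul_def, Algebra.smul_def, Algebra.smul_def, map_mul]
    ring
  rw [h1, h2, add_mul]

lemma natDegree_prod_le (S : Multiset ℂ) :
    (S.map fun x => Polynomial.X + Polynomial.C x).prod.natDegree ≤ Multiset.card S := by
  induction S using Multiset.induction with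
  | empty => simp
  | cons x S ih =>
    rw [Multiset.map_cons, Multiset.prod_cons, Multiset.card_cons]
    refine (Polynomial.natDegree_mul_le).trans ?_
    rw [Polynomial.natDegree_X_add_C]
    omega

lemma homz_prod (p q : A) (S : Multiset ℂ) :
    homz p q (Multiset.card S) (S.map fun x => Polynomial.X + Polynomial.C x).prod =
      (S.map fun x => p + x • q).prod := by
  induction S using Multiset.induction with
  | empty => simp [homz_apply]
  | cons x S ih =>
    rw [Multiset.map_cons, Multiset.prod_cons, Multiset.map_cons, Multiset.prod_cons,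
      Multiset.card_cons, homz_step p q _ x _ (natDegree_prod_le S), ih]

/-- Every element of the `N`-th power of the pencil is a homogenisation. -/
lemma exists_homz (p q : A) (N : ℕ) (u : A) (hu : u ∈ (Submodule.span ℂ {p, q}) ^ N) :
    ∃ f : Polynomial ℂ, f.natDegree ≤ N ∧ homz p q N f = u := by
  induction N generalizing u with
  | zero =>
    rw [pow_zero, Submodule.mem_one] at hu
    obtain ⟨c, rfl⟩ := hu
    exact ⟨Polynomial.C c, by simp, by simp [homz_apply, Algebra.algebraMap_eq_smul_one]⟩
  | succ N ih =>
    rw [pow_succ'] at hu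
    induction hu using Submodule.mul_induction_on' with
    | mem_mul_mem l hl v hv =>
      obtain ⟨f, hf, rfl⟩ := ih v hv
      obtain ⟨c, d, rfl⟩ := Submodule.mem_span_pair.1 hl
      refine ⟨(Polynomial.C c * Polynomial.X + Polynomial.C d) * f, ?_, ?_⟩
      · refine Polynomial.natDegree_mul_le.trans ?_
        have := Polynomial.natDegree_linear_le (a := c) (b := d)
        omega
      · have h0 := homz_step p q N 0 f hf
        have h1 := homz_step p q N 1 f hf
        rw [map_zero, add_zero, zero_smul, add_zero] at h0
        rw [map_one, one_smul, add_mul, one_mul, map_add, h0] at h1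
        have h2 : homz p q (N + 1) f = q * homz p q N f := by
          have h3 : homz p q (N + 1) f = (p + q) * homz p q N f - p * homz p q N f := by
            rw [← h1]; ring
          rw [h3]; ring
        have h4 : (Polynomial.C c * Polynomial.X + Polynomial.C d) * f =
            c • (Polynomial.X * f) + d • f := by
          rw [Polynomial.smul_eq_C_mul, Polynomial.smul_eq_C_mul]; ring
        rw [h4, map_add, map_smul, map_smul, h0, h2, Algebra.smul_def, Algebra.smul_def,
          Algebra.smul_def, Algebra.smul_def]
        ring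
    | add x hx y hy h1 h2 =>
      obtain ⟨f, hf, rfl⟩ := h1
      obtain ⟨g, hg, rfl⟩ := h2
      exact ⟨f + g, (Polynomial.natDegree_add_le _ _).trans (max_le hf hg), map_add _ _ _⟩

/-- A polynomial of degree at most `N` whose `N`-th coefficient is not zero splits. -/
lemma exists_split (N : ℕ) (f : Polynomial ℂ) (hf : f.natDegree ≤ N) (hN : f.coeff N ≠ 0) :
    ∃ S : Multiset ℂ, Multiset.card S = N ∧
      f = f.coeff N • (S.map fun x => Polynomial.X + Polynomial.C x).prod := by
  have hd : f.natDegree = N :=
    le_antisymm hf (Polynomial.le_natDegree_of_ne_zero hN)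
  have hs := IsAlgClosed.splits f
  have h1 := hs.eq_prod_roots
  refine ⟨f.roots.map fun x => -x, ?_, ?_⟩
  · rw [Multiset.card_map, ← hs.natDegree_eq_card_roots, hd]
  · rw [Multiset.map_map]
    have h2 : ((fun x => Polynomial.X + Polynomial.C x) ∘ fun x : ℂ => -x) =
        fun x => Polynomial.X - Polynomial.C x := by
      funext x
      simp only [Function.comp_apply, map_neg, sub_eq_add_neg]
    rw [h2, Polynomial.smul_eq_C_mul]
    rw [← hd]
    exact h1

/-- Step 1: distinct roots. -/
lemma wcore_inj (p q : A) {b : ℕ} (φ : A →ₗ[ℂ] ℂ) (v : Fin (b + 1) → ℂ)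
    (hv : Function.Injective v)
    (h : ∀ j, φ (∏ i ∈ Finset.univ.erase j, (p + v i • q)) = 0)
    (Q : A) (hQ : Q ∈ (Submodule.span ℂ {p, q}) ^ b) : φ Q = 0 := by
  classical
  obtain ⟨f, hf, rfl⟩ := exists_homz p q b Q hQ
  have h1 : f = Lagrange.interpolate Finset.univ (fun i => - v i)
      (fun i => Polynomial.eval (- v i) f) := by
    apply Lagrange.eq_interpolate
    · intro i _ j _ hij
      exact hv (neg_injective hij)
    · rw [Finset.card_univ, Fintype.card_fin]
      refine lt_of_le_of_lt Polynomial.degree_le_natDegree ?_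
      exact_mod_cast Nat.lt_succ_of_le hf
  rw [h1, Lagrange.interpolate_apply, map_sum, map_sum]
  apply Finset.sum_eq_zero
  intro j _
  have h2 : Polynomial.C (Polynomial.eval (- v j) f) *
      Lagrange.basis Finset.univ (fun i => - v i) j =
      (Polynomial.eval (- v j) f * ∏ i ∈ Finset.univ.erase j, (- v j - - v i)⁻¹) •
        (((Finset.univ.erase j).val.map v).map fun x => Polynomial.X + Polynomial.C x).prod := by
    rw [Polynomial.smul_eq_C_mul, map_mul, mul_assoc, Lagrange.basis]
    congr 1
    rw [Multiset.map_map, map_prod]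
    have h3 : (Multiset.map ((fun x => Polynomial.X + Polynomial.C x) ∘ v)
        (Finset.univ.erase j).val).prod =
        ∏ i ∈ Finset.univ.erase j, (Polynomial.X + Polynomial.C (v i)) := rfl
    rw [h3, ← Finset.prod_mul_distrib]
    apply Finset.prod_congr rfl
    intro i _
    rw [Lagrange.basisDivisor, map_neg, sub_neg_eq_add, sub_neg_eq_add]
  have h4 : Multiset.card ((Finset.univ.erase j).val.map v) = b := by
    rw [Multiset.card_map, Finset.card_val, Finset.card_erase_of_mem (Finset.mem_univ _),
      Finset.card_univ, Fintype.card_fin, Nat.add_sub_cancel]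
  have h5 := homz_prod p q ((Finset.univ.erase j).val.map v)
  rw [h4] at h5
  have h6 : (Multiset.map (fun x => p + x • q) (Multiset.map v (Finset.univ.erase j).val)).prod =
      ∏ i ∈ Finset.univ.erase j, (p + v i • q) := by
    rw [Multiset.map_map]; rfl
  rw [h2, map_smul, map_smul, h5, h6, h j, smul_zero]

/-- **The core.** -/
theorem wcore (p q : A) {m b : ℕ} (w : A →ₗ[ℂ] MultilinearMap ℂ (fun _ : Fin m => A) ℂ)
    (hsym : ∀ Q, IsSymm (w Q))
    (h : ∀ (T : Multiset ℂ) (x : ℂ), Multiset.card T = b →
      w (T.map fun y => p + y • q).prod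
        (fun _ => (p + x • q) * (T.map fun y => p + y • q).prod) = 0)
    (Q : A) (hQ : Q ∈ (Submodule.span ℂ {p, q}) ^ b) (R : Fin m → A)
    (hR : ∀ i, R i ∈ (Submodule.span ℂ {p, q}) ^ (b + 1)) : w Q R = 0 := by
  classical
  -- distinct roots
  have hB : ∀ v : Fin (b + 1) → ℂ, Function.Injective v →
      w Q (fun _ => ∏ i, (p + v i • q)) = 0 := by
    intro v hv
    let φ : A →ₗ[ℂ] ℂ :=
      { toFun := fun u => w u (fun _ => ∏ i, (p + v i • q))
        map_add' := fun x y => by rw [map_add]; rfl
        map_smul' := fun c x => by rw [map_smul]; rfl }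
    refine wcore_inj p q φ v hv ?_ Q hQ
    intro j
    have h1 := h ((Finset.univ.erase j).val.map v) (v j) (by
      rw [Multiset.card_map, Finset.card_val, Finset.card_erase_of_mem (Finset.mem_univ _),
        Finset.card_univ, Fintype.card_fin, Nat.add_sub_cancel])
    rw [Multiset.map_map] at h1
    have h6 : (Multiset.map ((fun x => p + x • q) ∘ v) (Finset.univ.erase j).val).prod =
        ∏ i ∈ Finset.univ.erase j, (p + v i • q) := rfl
    rw [h6, Finset.mul_prod_erase _ (fun i => p + v i • q) (Finset.mem_univ j)] at h1
    exact h1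
  -- all roots
  have hC : ∀ v : Fin (b + 1) → ℂ, w Q (fun _ => ∏ i, (p + v i • q)) = 0 := by
    obtain ⟨P, hP, -⟩ := mv_exists (σ := Fin (b + 1)) (w Q)
      (fun _ => ∏ i, (C p + X i * C q))
    have hev : ∀ v : Fin (b + 1) → ℂ, evA v (∏ i, (C p + X i * C q)) = ∏ i, (p + v i • q) := by
      intro v
      rw [map_prod]
      apply Finset.prod_congr rfl
      intro i _
      rw [map_add, map_mul, evA_C, evA_C, evA_X, Algebra.smul_def]
    let V : MvPolynomial (Fin (b + 1)) ℂ :=
      ∏ x ∈ (Finset.univ : Finset (Fin (b + 1) × Fin (b + 1))).filter (fun x => x.1 ≠ x.2),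
        (X x.1 - X x.2)
    have hV : V ≠ 0 := by
      rw [Finset.prod_ne_zero_iff]
      intro x hx h0
      rw [Finset.mem_filter] at hx
      exact hx.2 (X_injective (sub_eq_zero.1 h0))
    have hPV : P * V = 0 := by
      apply MvPolynomial.funext
      intro v
      rw [map_mul, map_zero]
      by_cases hv : Function.Injective v
      · rw [hP, show (fun _ : Fin m => evA v (∏ i, (C p + X i * C q))) =
          fun _ => ∏ i, (p + v i • q) from funext fun _ => hev v, hB v hv, zero_mul]
      · rw [Function.Injective] at hv
        push Not at hv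
        obtain ⟨i, j, hij, hne⟩ := hv
        have h1 : eval v V = 0 := by
          rw [map_prod]
          apply Finset.prod_eq_zero (i := (i, j))
          · rw [Finset.mem_filter]
            exact ⟨Finset.mem_univ _, hne⟩
          · rw [map_sub, eval_X, eval_X, hij, sub_self]
        rw [h1, mul_zero]
    have hP0 : P = 0 := (mul_eq_zero.1 hPV).resolve_right hV
    intro v
    have h1 := hP v
    rw [hP0, map_zero] at h1
    rw [h1]
    congr 1
    funext _
    exact (hev v).symm
  -- all forms
  have hD : ∀ u ∈ (Submodule.span ℂ {p, q}) ^ (b + 1), w Q (fun _ => u) = 0 := by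
    intro u hu
    obtain ⟨f, hf, rfl⟩ := exists_homz p q (b + 1) u hu
    obtain ⟨r, hr⟩ := poly_exists (w Q) (fun _ => Polynomial.C (homz p q (b + 1) f) +
      Polynomial.X * Polynomial.C (p ^ (b + 1)))
    have hp : homz p q (b + 1) (Polynomial.X ^ (b + 1)) = p ^ (b + 1) := by
      rw [homz_apply, Finset.sum_eq_single (b + 1)]
      · rw [Polynomial.coeff_X_pow_self, one_smul, Nat.sub_self, pow_zero, mul_one]
      · intro k _ hk
        rw [Polynomial.coeff_X_pow, if_neg hk, zero_smul]
      · intro hk
        exact absurd (Finset.mem_range.2 (Nat.lt_succ_self _)) hk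
    have hz : ∀ t : ℂ, t ≠ - f.coeff (b + 1) → r.eval t = 0 := by
      intro t ht
      let g : Polynomial ℂ := f + t • Polynomial.X ^ (b + 1)
      have hg1 : g.natDegree ≤ b + 1 := by
        refine (Polynomial.natDegree_add_le _ _).trans (max_le hf ?_)
        refine (Polynomial.natDegree_smul_le _ _).trans ?_
        rw [Polynomial.natDegree_X_pow]
      have hg2 : g.coeff (b + 1) ≠ 0 := by
        rw [Polynomial.coeff_add, Polynomial.coeff_smul, Polynomial.coeff_X_pow_self, smul_eq_mul,
          mul_one]
        intro h0
        exact ht (by rw [← add_eq_zero_iff_eq_neg.1 ((add_comm _ _).trans h0)])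
      obtain ⟨S, hS, hgS⟩ := exists_split (b + 1) g hg1 hg2
      have h1 : homz p q (b + 1) f + algebraMap ℂ A t * p ^ (b + 1) =
          g.coeff (b + 1) • (S.map fun x => p + x • q).prod := by
        have h2 : homz p q (b + 1) g = homz p q (b + 1) f + algebraMap ℂ A t * p ^ (b + 1) := by
          rw [map_add, map_smul, hp, Algebra.smul_def]
        rw [← h2]
        conv_lhs => rw [hgS]
        rw [map_smul]
        congr 1
        have h3 := homz_prod p q S
        rw [hS] at h3
        exact h3
      obtain ⟨v, hv⟩ : ∃ v : Fin (b + 1) → ℂ, S = Finset.univ.val.map v := by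
        obtain ⟨l, rfl⟩ := Quot.exists_rep S
        have hl : l.length = b + 1 := hS
        refine ⟨fun i => l.get (Fin.cast hl.symm i), ?_⟩
        have h5 : (Finset.univ : Finset (Fin (b + 1))).val = (List.finRange (b + 1) : Multiset _) :=
          rfl
        rw [h5, Multiset.map_coe]
        apply congrArg
        apply List.ext_get
        · simp [hl]
        · intro n h6 h7
          simp
      rw [hr]
      have h4 : (fun _ : Fin m => Polynomial.eval (algebraMap ℂ A t)
          (Polynomial.C (homz p q (b + 1) f) + Polynomial.X * Polynomial.C (p ^ (b + 1)))) =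
          fun _ => g.coeff (b + 1) • ∏ i, (p + v i • q) := by
        funext _
        rw [Polynomial.eval_add, Polynomial.eval_mul, Polynomial.eval_C, Polynomial.eval_C,
          Polynomial.eval_X, h1, hv, Multiset.map_map]
        rfl
      rw [h4]
      have h5 := (w Q).map_smul_univ (fun _ => g.coeff (b + 1)) (fun _ => ∏ i, (p + v i • q))
      rw [h5, hC v, smul_zero]
    have hr0 : r = 0 := by
      apply Polynomial.eq_zero_of_infinite_isRoot
      apply Set.Infinite.mono (s := ({- f.coeff (b + 1)} : Set ℂ)ᶜ)
      · intro t ht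
        exact hz t ht
      · exact (Set.finite_singleton _).infinite_compl
    have h1 := hr 0
    rw [hr0, Polynomial.eval_zero] at h1
    rw [h1]
    congr 1
    funext _
    rw [Polynomial.eval_add, Polynomial.eval_mul, Polynomial.eval_C, Polynomial.eval_X, map_zero,
      zero_mul, add_zero]
  exact PM.polar (w Q) (hsym Q) _ hD R hR

end Vale.Agent.P181.R2.H940
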